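import Vale.Agent.P088.R2.H464.B.Hyf
import Vale.Agent.P088.R2.H464.B.Fr2

/-!
# P088, zone B1: the model against itself and the metric sizes, from the one-slot classes
-/

open Set Filter
open scoped ContDiff Topology

noncomputable section

set_option linter.unusedSectionVars false

namespace Vale.Agent.P088.R2.H724.B1

open Vale.Agent.P088.LR Vale.Agent.P088.HY
open Vale.Agent.P088.R2.H464.B
open Vale.Agent.P088.R2.H961.F
open Vale.Agent.P088.R2.H968.B

variable {α : Type} {n : ℕ} {c : α → CD n} {Z : α → Set (VV n)} {hZ : ∀ x, IsOpen (Z x)}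
  {s₁ s₂ g : α → MF n} {U : α → Set (V n)} {hU : ∀ x, IsOpen (U x)} {t δ : α → VV n → ℝ}
  {L Lm : α → V n → ℝ} {k a : α → ℝ} {F S : ℕ → α → ℝ → ℝ} {W : α → VV n → ℝ}

theorem zr_ap (i j : Fin n) (x : α) (z : VV n) : (zr i j : α → VV n → ℝ) x z = 0 := rfl

/-- **`H₀`**: the model against itself. -/
theorem Hq_h0 (H : Hq c Z hZ s₁ s₂ g U hU t δ L Lm k a F S W) :
    Hy (Gf c Z hZ) (fe c) (H961.F.fr c) t δ zr zr (fun x => ((c x).T.w : VV n → ℝ))
      fun x => ((c x).T.w : VV n → ℝ) := by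
  choose b' hb' using H.eφ
  have eM : ∀ x, ∀ z ∈ (Gf c Z hZ).Z x, ((c x).T.w : VV n → ℝ) z = H.wc.W0 x z + b' x :=
    fun x z hz => H.W0_val x (hb' x z hz)
  have sw := (H.wc.sW0.add (Ge.Sm.const b')).congr eM
  exact
    { sz := H.sz
      sW := sw
      sW₀ := sw
      ss := fun i j => sm_zr i j
      sd := fun i j => sm_zr i j
      hW := (H.wc.hW0_of.addc b').congr eM
      hD := ((Ge.Gc.zero 3 _).congr fun _ _ _ => sub_self _).gd
      hs := fun i j => (Ge.Gc.zero 3 _).congr fun x z _ => zr_ap i j x z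
      hd := fun i j => (Ge.Gc.zero 3 _).congr fun x z _ => zr_ap i j x z }

/-- **The metric sizes.** -/
theorem Hq_hm (H : Hq c Z hZ s₁ s₂ g U hU t δ L Lm k a F S W)
    (k1 : ∀ x, k x ≤ 1) (ak : ∃ A, ∀ x, ∀ z ∈ Z x, a x ≤ A * (k x * H961.F.fr c x z)) :
    H464.B.Hm (Gf c Z hZ) (H961.F.fr c) (fun x _ => k x) (fs c s₁ s₂) (fd c s₁ s₂) := by
  have S' := H.sl2
  have R := S'.rr
  obtain ⟨A, hA⟩ := ak
  have nk : (Gf c Z hZ).Nn (cs k) := fun x _ _ => H.k0 x
  have na : (Gf c Z hZ).Nn (cs a) := fun x _ _ => H.a0 x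
  have sσ : ∀ i j, (G1 (Mc c) U hU).Sm fun x w => sg c s₁ i j x w - sg c s₂ i j x w := fun i j =>
    (H.s1 i j).sub (H.s2 i j)
  -- the difference
  have cD : ∀ (B : ℕ → ℕ), (∀ j, B j ≤ 1) → ∀ i j, (Gf c Z hZ).Gc 3 (pg (cs k) (H961.F.fr c) B)
      (fY fun x w => sg c s₁ i j x w - sg c s₂ i j x w) := fun B hB i j => by
    refine (gc_Y S' H.a0 (sσ i j) (H.h2 i j)).mono (fun j _ => pg_nn R na _ j) fun j _ =>
      ⟨|A|, fun x z hz => ?_⟩
    have r0 := R.r0 x z hz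
    have r1 := R.r1 x z hz
    have h1 : H961.F.fr c x z ≤ H961.F.fr c x z ^ B j := by
      calc H961.F.fr c x z = H961.F.fr c x z ^ 1 := (pow_one _).symm
        _ ≤ H961.F.fr c x z ^ B j := pow_le_pow_of_le_one r0 r1 (hB j)
    simp only [pg, cs, Z0, pow_zero, mul_one]
    calc a x ≤ A * (k x * H961.F.fr c x z) := hA x z hz
      _ ≤ |A| * (k x * H961.F.fr c x z) :=
          mul_le_mul_of_nonneg_right (le_abs_self A) (mul_nonneg (H.k0 x) r0)
      _ ≤ |A| * (k x * H961.F.fr c x z ^ B j) :=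
          mul_le_mul_of_nonneg_left (mul_le_mul_of_nonneg_left h1 (H.k0 x)) (abs_nonneg A)
  have cs' : ∀ i j, (Gf c Z hZ).Gc 3 (pg (cs k) (H961.F.fr c) E0) (fs c s₁ s₂ i j) := fun i j => by
    have c1 := pg_cmul R nk (gc_S S' H.k0 (H.s1 i j) (H.h1 i j)) (sm_S S' (H.s1 i j)) (1 / 2)
    have c2 := pg_cmul R nk (cD E0 E0_le i j) (sm_Y S' (sσ i j)) (1 / 2)
    refine (c1.sub c2 ((Ge.Sm.const fun _ => 1 / 2).mul (sm_S S' (H.s1 i j)))
      ((Ge.Sm.const fun _ => 1 / 2).mul (sm_Y S' (sσ i j))) fun j _ => pg_nn R nk _ j).congr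
      fun x z _ => ?_
    unfold fs fS fY H464.B.sg
    ring
  have cd' : ∀ i j, (Gf c Z hZ).Gc 3 (pg (cs k) (H961.F.fr c) O1) (fd c s₁ s₂ i j) := fun i j => by
    have c1 := pg_cmul R nk (gc_Q S' H.k0 (K := 3) (H.s1 i j) fun l => (H.h1 i j).2.2 l)
      (sm_Q S' (H.s1 i j)) (1 / 2)
    have c2 := pg_cmul R nk (cD O1 (fun j => by rw [O1_eq]; omega) i j) (sm_Y S' (sσ i j)) (1 / 2)
    refine (c1.add c2 ((Ge.Sm.const fun _ => 1 / 2).mul (sm_Q S' (H.s1 i j)))
      ((Ge.Sm.const fun _ => 1 / 2).mul (sm_Y S' (sσ i j)))).congr fun x z _ => ?_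
    unfold fd fQ fY H464.B.sg
    ring
  have one : ∀ {p g : α → VV n → ℝ} {f : α → VV n → ℝ}, (Gf c Z hZ).O p f →
      (∀ x z, p x z = g x z) → (Gf c Z hZ).O g f := fun hf e => by
    obtain ⟨C, hC⟩ := hf
    exact ⟨C, fun x z hz => by rw [← e x z]; exact hC x z hz⟩
  exact
    { k0 := fun x _ _ => H.k0 x
      k1 := fun x _ _ => k1 x
      s0 := fun i j => one (cs' i j).zero_of fun x z => by simp [pg, cs, E0, x3]
      sa := fun i j l => one ((cs' i j).2.1 l).zero_of fun x z => by simp [pg, cs, E0, x3]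
      sb := fun i j l => one ((cs' i j).2.2 l).zero_of fun x z => by simp [pg, cs, E0, x3]
      d0 := fun i j => one (cd' i j).zero_of fun x z => by simp [pg, cs, O1, x3]
      da := fun i j l => one ((cd' i j).2.1 l).zero_of fun x z => by simp [pg, cs, O1, x3]
      db := fun i j l => one ((cd' i j).2.2 l).zero_of fun x z => by simp [pg, cs, O1, x3] }

end Vale.Agent.P088.R2.H724.B1
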