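import Vale.Agent.P088.R2.H961.F.HyPb
import Vale.Agent.P088.R2.H464.B.Fr2

/-!
# P088, zone B1: the model of a cell against itself (hypothesis `H₀` of FR2), for families of cells
-/

open Finset Set Filter
open scoped ContDiff Topology

noncomputable section

set_option linter.unusedSectionVars false

namespace Vale.Agent.P088.R2.H724.B1

open Vale.Agent.P088.LR Vale.Agent.P088.HY
open Vale.Agent.P088.R2.H464.EP (Sm TE Dat ds scd)
open Vale.Agent.P088.R2.H464.B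
open Vale.Agent.P088.R2.H961.F
open Vale.Agent.P088.R2.H516.B (mu)
open Vale.Agent.P088.R2.H961.S (mid)

section gen

variable {α ι E : Type*} [NormedAddCommGroup E] [NormedSpace ℝ E] {G : Ge α ι E}

/-- The profile `g, 0, 0, …`: functions independent of the variables of the `a`'s. -/
def pz (g : α → E → ℝ) : ℕ → α → E → ℝ
  | 0 => g
  | _ + 1 => fun _ _ => 0

theorem pz_nn {g : α → E → ℝ} (h : G.Nn g) (j : ℕ) : G.Nn (pz g j) := by
  cases j with
  | zero => exact h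
  | succ j => exact fun _ _ _ => le_rfl

theorem pz_succ (g : α → E → ℝ) : (fun j => pz g (j + 1)) = fun _ _ _ => (0 : ℝ) := rfl

theorem zr_O {K : ℕ} {p : ℕ → α → E → ℝ} {f : α → E → ℝ} (h : ∀ x, ∀ z ∈ G.Z x, f x z = 0) :
    G.Gc K p f := (Ge.Gc.zero K p).congr h

/-- Product of a function of the `b`'s with a function of class `q`. -/
theorem cv_pz (g : α → E → ℝ) (q : ℕ → α → E → ℝ) (j : ℕ) (x : α) (z : E) :
    H464.B.cv (pz g) q j x z = g x z * q j x z := by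
  unfold H464.B.cv
  rw [Finset.sum_range_succ']
  rw [Finset.sum_eq_zero, zero_add]
  · rfl
  · intro i _
    show (0 : ℝ) * _ = 0
    rw [zero_mul]

theorem mul_pz {K : ℕ} {g : α → E → ℝ} {q : ℕ → α → E → ℝ} {f f' : α → E → ℝ}
    (hf : G.Gc K (pz g) f) (hf' : G.Gc K q f') (ng : G.Nn g) (nq : ∀ j ≤ K, G.Nn (q j))
    (sf : G.Sm f) (sf' : G.Sm f') :
    G.Gc K (fun j x z => g x z * q j x z) fun x z => f x z * f' x z :=
  (hf.mul hf' (fun j _ => pz_nn ng j) nq sf sf').mono (cv_nn (fun j _ => pz_nn ng j) nq)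
    fun j _ => ⟨1, fun x z _ => by rw [one_mul, cv_pz]⟩

theorem mul_pzz {K : ℕ} {g h : α → E → ℝ} {f f' : α → E → ℝ}
    (hf : G.Gc K (pz g) f) (hf' : G.Gc K (pz h) f') (ng : G.Nn g) (nh : G.Nn h)
    (sf : G.Sm f) (sf' : G.Sm f') :
    G.Gc K (pz fun x z => g x z * h x z) fun x z => f x z * f' x z := by
  refine (mul_pz hf hf' ng (fun j _ => pz_nn nh j) sf sf').mono
    (fun j _ x z hz => mul_nonneg (ng x z hz) (pz_nn nh j x z hz)) fun j _ => ⟨1, fun x z _ => ?_⟩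
  rw [one_mul]
  cases j with
  | zero => exact le_rfl
  | succ j => exact le_of_eq (mul_zero _)

/-- The exponential. -/
theorem exp_pz {e f : α → E → ℝ} (ne : G.Nn e) (oe : G.O e e) (se : G.Sm e) (sf : G.Sm f)
    (ha : ∀ i x, ∀ z ∈ G.Z x, G.da i e x z = 0)
    (hb : ∀ i x, ∀ z ∈ G.Z x, G.db i e x z = 2 * (G.db i f x z * e x z)) :
    ∀ K, (∀ i, G.Gc K (pz fun _ _ => 1) (G.db i f)) → G.Gc (K + 1) (pz e) e := by
  intro K
  induction K with
  | zero =>
    intro hf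
    refine ⟨oe, fun i => zr_O (K := 0) (ha i), fun i => ?_⟩
    have h1 := mul_pzz (K := 0) (hf i) (show G.Gc 0 (pz e) e from oe) (fun _ _ _ => zero_le_one) ne
      (sf.db i) se
    have h2 := h1.cmul ((sf.db i).mul se) (fun j _ => pz_nn (fun x z hz => by
      rw [one_mul]; exact ne x z hz) j) 2
    refine (h2.congr (hb i)).mono (fun j _ => pz_nn (fun x z hz => by
      rw [one_mul]; exact ne x z hz) j) fun j _ => ⟨1, fun x z _ => ?_⟩
    rw [one_mul]
    cases j with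
    | zero => exact le_of_eq (one_mul _)
    | succ j => exact le_rfl
  | succ K ih =>
    intro hf
    refine ⟨oe, fun i => zr_O (K := K + 1) (ha i), fun i => ?_⟩
    have h0 := ih fun i => (hf i).mono_K
    have h1 := mul_pzz (hf i) h0 (fun _ _ _ => zero_le_one) ne (sf.db i) se
    have h2 := h1.cmul ((sf.db i).mul se) (fun j _ => pz_nn (fun x z hz => by
      rw [one_mul]; exact ne x z hz) j) 2
    refine (h2.congr (hb i)).mono (fun j _ => pz_nn (fun x z hz => by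
      rw [one_mul]; exact ne x z hz) j) fun j _ => ⟨1, fun x z _ => ?_⟩
    rw [one_mul]
    cases j with
    | zero => exact le_of_eq (one_mul _)
    | succ j => exact le_rfl

end gen

/-! ## Functions of the midpoint -/

section cells

variable {α : Type} {n : ℕ} (c : α → CD n) (Z : α → Set (VV n)) (hZ : ∀ x, IsOpen (Z x))

theorem mid_a (c : CD n) (i : Fin n) : mid (Fin n) (c.T.a i) = 0 := by
  change mid (Fin n) ((1 / 2 : ℝ) • c.M.col i, -((1 / 2 : ℝ) • c.M.col i)) = 0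
  rw [H961.S.mid_apply]; simp

variable {c Z hZ}

theorem mid_sm {f : α → V n → ℝ} (cf : ∀ x, ContDiff ℝ ∞ (f x)) :
    (Gf c Z hZ).Sm fun x z => f x ((1 / 2 : ℝ) • (z.1 + z.2)) := fun x => by
  have h : ContDiff ℝ ∞ fun z : VV n => (1 / 2 : ℝ) • (z.1 + z.2) :=
    (mid (Fin n)).contDiff
  exact ((cf x).comp h).contDiffOn

theorem mid_da {f : α → V n → ℝ} (cf : ∀ x, ContDiff ℝ ∞ (f x)) (i : Fin n) (x : α) (z : VV n) :
    (Gf c Z hZ).da i (fun x z => f x ((1 / 2 : ℝ) • (z.1 + z.2))) x z = 0 := by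
  change fderiv ℝ (fun w : VV n => f x ((1 / 2 : ℝ) • (w.1 + w.2))) z ((c x).T.a i) = 0
  rw [fd_mid z (cf x), mid_a, map_zero]

theorem mid_db {f : α → V n → ℝ} (cf : ∀ x, ContDiff ℝ ∞ (f x)) (i : Fin n) (x : α) (z : VV n) :
    (Gf c Z hZ).db i (fun x z => f x ((1 / 2 : ℝ) • (z.1 + z.2))) x z =
      fderiv ℝ (f x) ((1 / 2 : ℝ) • (z.1 + z.2)) ((c x).M.col i) := by
  change fderiv ℝ (fun w : VV n => f x ((1 / 2 : ℝ) • (w.1 + w.2))) z ((c x).T.b i) = _
  rw [fd_mid z (cf x), mid_b]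

/-- The class of a function of the midpoint. -/
theorem mid_Gc {CM : ℝ} (hM0 : 0 ≤ CM) (hM : ∀ x i, ‖(c x).M.col i‖ ≤ CM) {g : α → VV n → ℝ} :
    ∀ {K : ℕ} {f : α → V n → ℝ}, (∀ x, ContDiff ℝ ∞ (f x)) →
    (∀ k ≤ K, ∃ C, ∀ x, ∀ z ∈ Z x,
      ‖iteratedFDeriv ℝ k (f x) ((1 / 2 : ℝ) • (z.1 + z.2))‖ ≤ C * g x z) →
    (Gf c Z hZ).Gc K (pz g) fun x z => f x ((1 / 2 : ℝ) • (z.1 + z.2)) := by
  intro K
  induction K with
  | zero =>
    intro f cf hf
    obtain ⟨C, hC⟩ := hf 0 le_rfl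
    refine ⟨C, fun x z hz => ?_⟩
    have := hC x z hz
    rw [norm_iteratedFDeriv_zero, Real.norm_eq_abs] at this
    exact this
  | succ K ih =>
    intro f cf hf
    refine ⟨?_, fun i => zr_O fun x z _ => mid_da cf i x z, fun i => ?_⟩
    · obtain ⟨C, hC⟩ := hf 0 (Nat.zero_le _)
      refine ⟨C, fun x z hz => ?_⟩
      have := hC x z hz
      rw [norm_iteratedFDeriv_zero, Real.norm_eq_abs] at this
      exact this
    · have cf' : ∀ x, ContDiff ℝ ∞ fun p => fderiv ℝ (f x) p ((c x).M.col i) := fun x =>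
        cd_fd (cf x) _
      refine (ih cf' fun k hk => ?_).congr fun x z _ => mid_db cf i x z
      obtain ⟨C, hC⟩ := hf (k + 1) (Nat.succ_le_succ hk)
      refine ⟨CM * C, fun x z hz => ?_⟩
      have h1 : ContDiff ℝ ∞ (fderiv ℝ (f x)) := (cf x).fderiv_right (m := ∞) (by simp)
      have h2 := norm_iteratedFDeriv_clm_apply_const (𝕜 := ℝ) (f := fderiv ℝ (f x))
        (c := (c x).M.col i) (x := (1 / 2 : ℝ) • (z.1 + z.2)) (N := ∞) (n := k) h1.contDiffAt
        (by exact_mod_cast le_top)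
      rw [norm_iteratedFDeriv_fderiv] at h2
      refine h2.trans ?_
      rw [mul_assoc]
      exact mul_le_mul (hM x i) (hC x z hz) (norm_nonneg _) hM0

/-- The derivatives of a function of the midpoint. -/
theorem mid_Gd {CM : ℝ} (hM0 : 0 ≤ CM) (hM : ∀ x i, ‖(c x).M.col i‖ ≤ CM) {g : α → VV n → ℝ}
    {K : ℕ} {f : α → V n → ℝ} (cf : ∀ x, ContDiff ℝ ∞ (f x))
    (hf : ∀ k ≤ K, ∃ C, ∀ x, ∀ z ∈ Z x,
      ‖iteratedFDeriv ℝ (k + 1) (f x) ((1 / 2 : ℝ) • (z.1 + z.2))‖ ≤ C * g x z) :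
    (Gf c Z hZ).Gd K (pz g) fun x z => f x ((1 / 2 : ℝ) • (z.1 + z.2)) := by
  refine ⟨trivial, fun i => zr_O fun x z _ => mid_da cf i x z, fun i => ?_⟩
  have cf' : ∀ x, ContDiff ℝ ∞ fun p => fderiv ℝ (f x) p ((c x).M.col i) := fun x =>
    cd_fd (cf x) _
  refine (mid_Gc hM0 hM cf' (g := g) fun k hk => ?_).congr fun x z _ => mid_db cf i x z
  obtain ⟨C, hC⟩ := hf k hk
  refine ⟨CM * C, fun x z hz => ?_⟩
  have h1 : ContDiff ℝ ∞ (fderiv ℝ (f x)) := (cf x).fderiv_right (m := ∞) (by simp)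
  have h2 := norm_iteratedFDeriv_clm_apply_const (𝕜 := ℝ) (f := fderiv ℝ (f x))
    (c := (c x).M.col i) (x := (1 / 2 : ℝ) • (z.1 + z.2)) (N := ∞) (n := k) h1.contDiffAt
    (by exact_mod_cast le_top)
  rw [norm_iteratedFDeriv_fderiv] at h2
  refine h2.trans ?_
  rw [mul_assoc]
  exact mul_le_mul (hM x i) (hC x z hz) (norm_nonneg _) hM0

/-! ## The stiffness, the coordinates, the weight -/

variable (c Z hZ)

/-- `N + μ`. -/
def fν (N : α → VV n → ℝ) : α → VV n → ℝ := fun x z => N x z + (mu (c x).T : VV n → ℝ) z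

/-- `t = (N + μ) / (e r)`. -/
def ft (N : α → VV n → ℝ) : α → VV n → ℝ := fun x z =>
  fν c N x z / (fe c x z * fr c x z)

theorem sm_cd (f : Sm (VV n)) : ContDiff ℝ ∞ (f : VV n → ℝ) := f.2

theorem e_sm : (Gf c Z hZ).Sm (fe c) := fun x => (sm_cd (c x).T.e).contDiffOn

theorem w_sm : (Gf c Z hZ).Sm fun x => ((c x).T.w : VV n → ℝ) := fun x =>
  (sm_cd (c x).T.w).contDiffOn

theorem q_sm (j : Fin n) : (Gf c Z hZ).Sm fun x => ((c x).T.q j : VV n → ℝ) := fun x =>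
  (sm_cd ((c x).T.q j)).contDiffOn

theorem er2 (x : α) (z : VV n) : fe c x z * fr c x z ^ 2 = (mu (c x).T : VV n → ℝ) z :=
  (rt_mul (fe_pos c x z) (by linarith [mu_ge c x z])).2

theorem r_pos (x : α) (z : VV n) : 0 < fr c x z := by
  unfold H961.F.fr
  exact Real.sqrt_pos.2 (div_pos (by linarith [mu_ge c x z]) (fe_pos c x z))

theorem ert (N : α → VV n → ℝ) (x : α) (z : VV n) :
    fe c x z * fr c x z * ft c N x z = fν c N x z := by
  have h : fe c x z * fr c x z ≠ 0 := (mul_pos (fe_pos c x z) (r_pos c x z)).ne'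
  unfold ft
  exact mul_div_cancel₀ _ h

theorem q_le_r (x : α) (z : VV n) (j : Fin n) : |((c x).T.q j : VV n → ℝ) z| ≤ fr c x z := by
  have h1 := er2 c x z
  have h2 : (mu (c x).T : VV n → ℝ) z = 1 + ((c x).T.e : VV n → ℝ) z * ((c x).T.qq : VV n → ℝ) z :=
    rfl
  have he := fe_pos c x z
  have h3 : ((c x).T.q j : VV n → ℝ) z ^ 2 ≤ ((c x).T.qq : VV n → ℝ) z := by
    rw [T_qq, T_q]
    exact Finset.single_le_sum (f := fun i => (∑ k, (c x).N i k * (z.1 k - z.2 k)) ^ 2)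
      (fun i _ => sq_nonneg _) (Finset.mem_univ j)
  refine abs_le_of_sq_le_sq ?_ (r_pos c x z).le
  have h4 : fe c x z * ((c x).T.q j : VV n → ℝ) z ^ 2 ≤ fe c x z * fr c x z ^ 2 := by
    rw [h1, h2]
    have : fe c x z * ((c x).T.q j : VV n → ℝ) z ^ 2 ≤ fe c x z * ((c x).T.qq : VV n → ℝ) z :=
      mul_le_mul_of_nonneg_left h3 he.le
    have e : fe c x z = ((c x).T.e : VV n → ℝ) z := rfl
    rw [← e]
    linarith
  exact le_of_mul_le_mul_left h4 he

/-- The hypotheses on `l`, `φ` and on the sizes. -/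
structure Lf (N δ : α → VV n → ℝ) (CM : ℝ) : Prop where
  M0 : 0 ≤ CM
  M : ∀ x i, ‖(c x).M.col i‖ ≤ CM
  N0 : ∀ x, ∀ z ∈ Z x, 0 ≤ N x z
  l : ∀ k ≤ 3, ∃ C : ℝ, ∀ x, ∀ z ∈ Z x,
    ‖iteratedFDeriv ℝ (k + 1) (c x).l ((1 / 2 : ℝ) • (z.1 + z.2))‖ ≤ C
  φ : ∀ k ≤ 3, ∃ C : ℝ, ∀ x, ∀ z ∈ Z x,
    ‖iteratedFDeriv ℝ (k + 1) (c x).φ ((1 / 2 : ℝ) • (z.1 + z.2))‖ ≤ C * fν c N x z
  sz : ∀ x, ∀ z ∈ Z x, fν c N x z ^ 2 ≤ fe c x z * (mu (c x).T : VV n → ℝ) z
  d0 : ∀ x, ∀ z ∈ Z x, 0 ≤ δ x z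
  d1 : ∀ x, ∀ z ∈ Z x, δ x z ≤ 1

variable {c Z hZ}
variable {N δ : α → VV n → ℝ} {CM : ℝ}

theorem Lf.ν0 (H : Lf c Z N δ CM) (x : α) {z : VV n} (hz : z ∈ Z x) : 0 < fν c N x z := by
  have := H.N0 x z hz
  have := mu_ge c x z
  unfold fν
  linarith

/-- The sizes. -/
theorem Lf.Sz (H : Lf c Z N δ CM) : Sz (Gf c Z hZ) (fe c) (fr c) (ft c N) δ where
  e0 x z _ := fe_pos c x z
  r0 x z _ := r_pos c x z
  rt x z hz := by
    have hp := mul_pos (fe_pos c x z) (r_pos c x z)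
    unfold ft
    rw [le_div_iff₀ hp]
    have h1 := er2 c x z
    have h2 := H.N0 x z hz
    have h3 : fr c x z * (fe c x z * fr c x z) = fe c x z * fr c x z ^ 2 := by ring
    rw [h3, h1]
    unfold fν
    linarith
  t1 x z hz := by
    have hp := mul_pos (fe_pos c x z) (r_pos c x z)
    unfold ft
    rw [div_le_one hp]
    refine le_of_sq_le_sq ?_ hp.le
    have h1 := er2 c x z
    have h2 := H.sz x z hz
    have h3 : (fe c x z * fr c x z) ^ 2 = fe c x z * (fe c x z * fr c x z ^ 2) := by ring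
    rw [h3, h1]
    exact h2
  d0 := H.d0
  d1 := H.d1

/-- The class of the stiffness. -/
theorem Lf.eG (H : Lf c Z N δ CM) : (Gf c Z hZ).Gc 4 (pz (fe c)) (fe c) := by
  have cf : ∀ x, ContDiff ℝ ∞ (c x).l := fun x => (c x).cl
  have hl : ∀ i, (Gf c Z hZ).Gc 3 (pz fun _ _ => 1)
      ((Gf c Z hZ).db i fun x z => (c x).l ((1 / 2 : ℝ) • (z.1 + z.2))) := fun i =>
    (mid_Gd H.M0 H.M cf (g := fun _ _ => 1) fun k hk => by
      obtain ⟨C, hC⟩ := H.l k hk
      exact ⟨C, fun x z hz => by rw [mul_one]; exact hC x z hz⟩).2.2 i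
  refine exp_pz (f := fun x z => (c x).l ((1 / 2 : ℝ) • (z.1 + z.2)))
    (fun x z _ => (fe_pos c x z).le) ⟨1, fun x z _ => ?_⟩ (e_sm c Z hZ) (mid_sm cf)
    (fun i x z _ => ?_) (fun i x z _ => ?_) 3 hl
  · rw [one_mul, abs_of_pos (fe_pos c x z)]
  · change (ds ((c x).T.a i) (c x).T.e : VV n → ℝ) z = 0
    rw [(c x).T.ae i]; rfl
  · change (ds ((c x).T.b i) (c x).T.e : VV n → ℝ) z = _
    rw [(c x).T.be i]
    rfl

/-- The profile of `q_j`. -/
def pq (r : α → VV n → ℝ) : ℕ → α → VV n → ℝ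
  | 0 => r
  | 1 => fun _ _ => 1
  | _ + 2 => fun _ _ => 0

theorem pq_nn {r : α → VV n → ℝ} (h : (Gf c Z hZ).Nn r) (j : ℕ) : (Gf c Z hZ).Nn (pq r j) := by
  match j with
  | 0 => exact h
  | 1 => exact fun _ _ _ => zero_le_one
  | _ + 2 => exact fun _ _ _ => le_rfl

theorem q_Gc (j : Fin n) : ∀ K, (Gf c Z hZ).Gc K (pq (fr c)) fun x => ((c x).T.q j : VV n → ℝ) := by
  have o0 : (Gf c Z hZ).O (fr c) fun x => ((c x).T.q j : VV n → ℝ) :=
    ⟨1, fun x z _ => by rw [one_mul]; exact q_le_r c x z j⟩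
  have ha : ∀ i x, ∀ z ∈ Z x, (Gf c Z hZ).da i (fun x => ((c x).T.q j : VV n → ℝ)) x z =
      if i = j then 1 else 0 := fun i x z _ => by
    change (ds ((c x).T.a i) ((c x).T.q j) : VV n → ℝ) z = _
    rw [(c x).T.aq i j]
    split <;> rfl
  have hb : ∀ i x, ∀ z ∈ Z x, (Gf c Z hZ).db i (fun x => ((c x).T.q j : VV n → ℝ)) x z = 0 :=
    fun i x z _ => by
      change (ds ((c x).T.b i) ((c x).T.q j) : VV n → ℝ) z = _
      rw [(c x).T.bq i j]
      rfl
  intro K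
  cases K with
  | zero => exact o0
  | succ K =>
    refine ⟨o0, fun i => ?_, fun i => zr_O (hb i)⟩
    have h1 : (Gf c Z hZ).Gc K (fun j => pq (fr c) (j + 1)) fun _ _ => if i = j then (1 : ℝ) else 0 :=
      Ge.Gc.const K _ (fun _ => if i = j then (1 : ℝ) else 0) ⟨1, fun x z _ => by
        change _ ≤ 1 * (1 : ℝ)
        split <;> simp⟩
    exact h1.congr (ha i)

/-- **The class of the model weight.** -/
theorem Lf.wG (H : Lf c Z N δ CM) :
    (Gf c Z hZ).Gd 3 (ms (fe c) (fr c) (ft c N) δ 0 1 (x3 1 1 0) (x3 1 0 0))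
      fun x => ((c x).T.w : VV n → ℝ) := by
  have S := H.Sz (hZ := hZ)
  have nr : (Gf c Z hZ).Nn (fr c) := fun x z _ => (r_pos c x z).le
  have ne : (Gf c Z hZ).Nn (fe c) := fun x z _ => (fe_pos c x z).le
  have nq := pq_nn nr
  have ncv : ∀ j ≤ 4, (Gf c Z hZ).Nn (H464.B.cv (pq (fr c)) (pq (fr c)) j) :=
    cv_nn (fun j _ => nq j) fun j _ => nq j
  have qq : ∀ j, (Gf c Z hZ).Gc 4 (H464.B.cv (pq (fr c)) (pq (fr c)))
      fun x z => ((c x).T.q j : VV n → ℝ) z * ((c x).T.q j : VV n → ℝ) z := fun j =>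
    (q_Gc j 4).mul (q_Gc j 4) (fun j _ => nq j) (fun j _ => nq j) (q_sm c Z hZ j) (q_sm c Z hZ j)
  have sqq : ∀ j, (Gf c Z hZ).Sm
      fun x z => ((c x).T.q j : VV n → ℝ) z * ((c x).T.q j : VV n → ℝ) z := fun j =>
    (q_sm c Z hZ j).mul (q_sm c Z hZ j)
  have Q := Ge.Gc.sum Finset.univ (fun j _ => qq j) fun j _ => sqq j
  have sQ := Ge.Sm.sum Finset.univ fun j (_ : j ∈ Finset.univ) => sqq j
  have eQ := mul_pz H.eG Q ne ncv (e_sm c Z hZ) sQ
  have hh := eQ.cmul ((e_sm c Z hZ).mul sQ) (fun j hj x z hz => mul_nonneg (ne x z hz)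
    (ncv j hj x z hz)) (1 / 2)
  have ph : (Gf c Z hZ).Gd 3 (pz (fν c N)) fun x z => (c x).φ ((1 / 2 : ℝ) • (z.1 + z.2)) :=
    mid_Gd H.M0 H.M (fun x => (c x).cφ) H.φ
  have sph : (Gf c Z hZ).Sm fun x z => (c x).φ ((1 / 2 : ℝ) • (z.1 + z.2)) :=
    mid_sm fun x => (c x).cφ
  have m1 : (Gf c Z hZ).Gc 4 (ms (fe c) (fr c) (ft c N) δ 0 1 (x3 1 1 0) (x3 1 0 0))
      fun x z => 1 / 2 * (fe c x z *
        ∑ j, ((c x).T.q j : VV n → ℝ) z * ((c x).T.q j : VV n → ℝ) z) := by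
    refine hh.mono (fun j hj x z hz => mul_nonneg (ne x z hz) (ncv j hj x z hz))
      fun j hj => ⟨2, fun x z hz => ?_⟩
    have h1 := S.e0 x z hz
    have h2 := S.r0 x z hz
    have h3 := S.rt x z hz
    have h4 := S.t1 x z hz
    have t0 : 0 ≤ ft c N x z := h2.le.trans h3
    have r1 : fr c x z ≤ 1 := h3.trans h4
    unfold H464.B.cv ms mn
    match j with
    | 0 =>
      simp only [Finset.sum_range_succ, Finset.sum_range_zero, pq, x3]
      have : fr c x z * fr c x z ≤ fr c x z * ft c N x z := mul_le_mul_of_nonneg_left h3 h2.le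
      have := mul_le_mul_of_nonneg_left this h1.le
      have : 0 ≤ fe c x z * (fr c x z * ft c N x z) := by positivity
      simp only [pow_zero, pow_one, one_mul, zero_add, Nat.sub_zero]
      nlinarith
    | 1 =>
      simp only [Finset.sum_range_succ, Finset.sum_range_zero, pq, x3, pow_zero, pow_one, one_mul,
        zero_add, Nat.sub_zero, Nat.sub_self]
      have : 0 ≤ fe c x z * fr c x z := by positivity
      nlinarith
    | 2 =>
      simp only [Finset.sum_range_succ, Finset.sum_range_zero, pq, x3, pow_zero, pow_one, one_mul,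
        zero_add, Nat.sub_zero, Nat.sub_self]
      norm_num
      nlinarith
    | 3 =>
      simp only [Finset.sum_range_succ, Finset.sum_range_zero, pq, x3, pow_zero, pow_one, one_mul,
        zero_add, Nat.sub_zero, Nat.sub_self]
      norm_num
      nlinarith
    | 4 =>
      simp only [Finset.sum_range_succ, Finset.sum_range_zero, pq, x3, pow_zero, pow_one, one_mul,
        zero_add, Nat.sub_zero, Nat.sub_self]
      norm_num
      nlinarith
    | _ + 5 => exact absurd hj (by omega)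
  have m2 : (Gf c Z hZ).Gd 3 (ms (fe c) (fr c) (ft c N) δ 0 1 (x3 1 1 0) (x3 1 0 0))
      fun x z => (c x).φ ((1 / 2 : ℝ) • (z.1 + z.2)) := by
    refine ph.mono (fun j _ => pz_nn (fun x z hz => (H.ν0 x hz).le) j) fun j hj =>
      ⟨1, fun x z hz => ?_⟩
    cases j with
    | zero =>
      have := ert c N x z
      unfold ms mn
      simp only [pz, x3, pow_zero, pow_one, one_mul]
      rw [this]
    | succ j =>
      rw [one_mul]
      exact ms_nn S _ _ _ _ _ x z hz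
  refine (m1.gd.add m2 ((Ge.Sm.const fun _ => 1 / 2).mul ((e_sm c Z hZ).mul sQ)) sph).congr
    fun x z _ => ?_
  rw [T_w]
  have e1 : fe c x z = (c x).E₀ * Real.exp (2 * (c x).l ((1 / 2 : ℝ) • (z.1 + z.2))) := rfl
  have e2 : ∑ j, ((c x).T.q j : VV n → ℝ) z * ((c x).T.q j : VV n → ℝ) z =
      ∑ i, (∑ k, (c x).N i k * (z.1 k - z.2 k)) ^ 2 :=
    Finset.sum_congr rfl fun j _ => by rw [T_q]; ring
  rw [e1, e2]

/-- **The model against itself.** -/
theorem Lf.H0 (H : Lf c Z N δ CM) : Hy (Gf c Z hZ) (fe c) (fr c) (ft c N) δ zr zr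
    (fun x => ((c x).T.w : VV n → ℝ)) fun x => ((c x).T.w : VV n → ℝ) where
  sz := H.Sz
  sW := w_sm c Z hZ
  sW₀ := w_sm c Z hZ
  ss i j := sm_zr i j
  sd i j := sm_zr i j
  hW := H.wG
  hD := (zr_O (K := 3) fun _ _ _ => sub_self _).gd
  hs _ _ := zr_O fun _ _ _ => rfl
  hd _ _ := zr_O fun _ _ _ => rfl

end cells

end Vale.Agent.P088.R2.H724.B1
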